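import Vale.Agent.P207.N3.H566.Slice

/-!
# Functions which are smooth along plots are Lipschitz on compact sets

`LipSec D`: the diffeology `D` on a metric space has local sections `r ∘ κ = id` with `κ` locally
Lipschitz. Then a function which is smooth along plots is locally Lipschitz, hence Lipschitz on
compact sets. (helper863)
-/

set_option linter.unusedSectionVars false

open Set Filter Topology Metric
open scoped ContDiff

namespace Vale.Agent.P207.N3.H863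

open Vale.Agent.P207.Q.Fl Vale.Agent.P207.N3.H566

/-- a locally Lipschitz function is Lipschitz on compact sets -/
theorem lip_of_local {Z W : Type*} [PseudoMetricSpace Z] [SeminormedAddCommGroup W] {K : Set Z}
    (hK : IsCompact K) {F : Z → W}
    (h : ∀ p ∈ K, ∃ C : ℝ, ∀ᶠ q in 𝓝 (p, p), ‖F q.1 - F q.2‖ ≤ C * dist q.1 q.2) :
    ∃ C : ℝ, 0 ≤ C ∧ ∀ p ∈ K, ∀ q ∈ K, ‖F p - F q‖ ≤ C * dist p q := by
  have hb : ∀ p ∈ K, ∃ B : ℝ, ∀ᶠ q in 𝓝 p, ‖F q‖ ≤ B := by
    intro p hp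
    obtain ⟨C, hC⟩ := h p hp
    have h1 : ∀ᶠ q in 𝓝 p, ‖F q - F p‖ ≤ C * dist q p := by
      have h2 : Tendsto (fun q : Z => (q, p)) (𝓝 p) (𝓝 (p, p)) :=
        (continuous_id.prodMk continuous_const).continuousAt
      exact h2.eventually hC
    refine ⟨|C| * 1 + ‖F p‖, ?_⟩
    filter_upwards [h1, closedBall_mem_nhds p one_pos] with q hq hq1
    have h3 : ‖F q‖ ≤ ‖F q - F p‖ + ‖F p‖ := by
      have := norm_add_le (F q - F p) (F p)
      simpa using this
    have h4 : C * dist q p ≤ |C| * 1 := by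
      have h5 : dist q p ≤ 1 := hq1
      calc C * dist q p ≤ |C| * dist q p :=
            mul_le_mul_of_nonneg_right (le_abs_self _) dist_nonneg
        _ ≤ |C| * 1 := mul_le_mul_of_nonneg_left h5 (abs_nonneg _)
    linarith
  have key : ∃ C : ℝ, ∀ z ∈ K ×ˢ K, ‖F z.1 - F z.2‖ ≤ C * dist z.1 z.2 := by
    refine (hK.prod hK).induction_on (p := fun s => ∃ C : ℝ, ∀ z ∈ s,
      ‖F z.1 - F z.2‖ ≤ C * dist z.1 z.2) ⟨0, fun z hz => hz.elim⟩
      (fun s t hst ⟨C, hC⟩ => ⟨C, fun z hz => hC z (hst hz)⟩)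
      (fun _ _ ⟨C, hC⟩ ⟨C', hC'⟩ => ⟨max C C', fun z hz => ?_⟩) ?_
    · rcases hz with hz | hz
      · exact (hC z hz).trans (mul_le_mul_of_nonneg_right (le_max_left _ _) dist_nonneg)
      · exact (hC' z hz).trans (mul_le_mul_of_nonneg_right (le_max_right _ _) dist_nonneg)
    · rintro ⟨p, q⟩ ⟨hp, hq⟩
      by_cases hd : dist p q = 0
      · obtain ⟨C, hC⟩ := h p hp
        have h1 : 𝓝 q = 𝓝 p := (Metric.inseparable_iff.2 hd).symm
        have h2 : 𝓝 ((p, q) : Z × Z) = 𝓝 (p, p) := by rw [nhds_prod_eq, nhds_prod_eq, h1]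
        rw [← h2] at hC
        exact ⟨_, mem_nhdsWithin_of_mem_nhds hC, C, fun z hz => hz⟩
      · have hd' : 0 < dist p q := lt_of_le_of_ne dist_nonneg (Ne.symm hd)
        obtain ⟨B, hB⟩ := hb p hp
        obtain ⟨B', hB'⟩ := hb q hq
        have h1 : ∀ᶠ z in 𝓝 (p, q), dist p q / 2 < dist z.1 z.2 :=
          (continuous_dist.continuousAt (x := (p, q))).eventually (lt_mem_nhds (by
            change dist p q / 2 < dist p q
            linarith))
        have h2 : ∀ᶠ z : Z × Z in 𝓝 (p, q), ‖F z.1‖ ≤ B :=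
          (continuousAt_fst (p := (p, q))).eventually hB
        have h3 : ∀ᶠ z : Z × Z in 𝓝 (p, q), ‖F z.2‖ ≤ B' :=
          (continuousAt_snd (p := (p, q))).eventually hB'
        refine ⟨_, mem_nhdsWithin_of_mem_nhds ((h1.and h2).and h3), (|B| + |B'|) * (2 / dist p q),
          fun z hz => ?_⟩
        obtain ⟨⟨hz1, hz2⟩, hz3⟩ := hz
        have h4 : ‖F z.1 - F z.2‖ ≤ |B| + |B'| :=
          (norm_sub_le _ _).trans (add_le_add (hz2.trans (le_abs_self _))
            (hz3.trans (le_abs_self _)))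
        have h5 : 1 ≤ 2 / dist p q * dist z.1 z.2 := by
          have h6 : 2 / dist p q * (dist p q / 2) = 1 := by field_simp
          rw [← h6]
          exact mul_le_mul_of_nonneg_left hz1.le (by positivity)
        have h7 : 0 ≤ |B| + |B'| := by positivity
        nlinarith
  obtain ⟨C, hC⟩ := key
  exact ⟨|C|, abs_nonneg _, fun p hp q hq => (hC (p, q) ⟨hp, hq⟩).trans
    (mul_le_mul_of_nonneg_right (le_abs_self _) dist_nonneg)⟩

variable {X : Type*} [PseudoMetricSpace X]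

/-- local sections `r ∘ κ = id` with `κ` locally Lipschitz -/
def LipSec (D : Dif X) : Prop :=
  ∀ x : X, ∃ (V : Type) (_ : NormedAddCommGroup V) (_ : NormedSpace ℝ V)
    (_ : FiniteDimensional ℝ V) (κ : X → V) (r : V → X), SecAt D x V κ r ∧
    ∃ C : ℝ, ∀ᶠ p in 𝓝 (x, x), ‖κ p.1 - κ p.2‖ ≤ C * dist p.1 p.2

theorem LipSec.sec {D : Dif X} (h : LipSec D) : Sec D := by
  intro x
  obtain ⟨V, i1, i2, i3, κ, r, hx, -⟩ := h x
  exact ⟨V, i1, i2, i3, κ, r, hx⟩

variable {D : Dif X} {E W : Type} [NormedAddCommGroup E] [NormedSpace ℝ E]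
  [FiniteDimensional ℝ E] [NormedAddCommGroup W] [NormedSpace ℝ W] {F : X → E → W}
  {S : Set (X × E)}

/-- a function which is smooth along plots is locally Lipschitz -/
theorem SmOn.locLip (hD : LipSec D) (hF : SmOn D F S) {p : X × E} (hp : p ∈ S) :
    ∃ C : ℝ, ∀ᶠ q in 𝓝 (p, p), ‖F q.1.1 q.1.2 - F q.2.1 q.2.2‖ ≤ C * dist q.1 q.2 := by
  obtain ⟨V, i1, i2, i3, κ, r, hx, C, hC⟩ := hD p.1
  have h1 : Sm (fun q : V × E => F (r q.1) q.2) (κ p.1, p.2) := hF.sm hx (u := p.2) hp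
  have h2 : ContDiffAt ℝ 1 (fun q : V × E => F (r q.1) q.2) (κ p.1, p.2) :=
    h1.contDiffAt.of_le (by exact_mod_cast le_top)
  obtain ⟨K, T, hT, hK⟩ := h2.exists_lipschitzOnWith
  have h3 : ContinuousAt (fun q : X × E => (κ q.1, q.2)) p :=
    (ContinuousAt.comp (g := κ) (f := Prod.fst) hx.ev.self_of_nhds.1 continuousAt_fst).prodMk
      continuousAt_snd
  have h4 : ∀ᶠ q : X × E in 𝓝 p, (κ q.1, q.2) ∈ T := h3.eventually hT
  have h5 : ∀ᶠ q : (X × E) × (X × E) in 𝓝 (p, p), (κ q.1.1, q.1.2) ∈ T :=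
    (continuousAt_fst (p := (p, p))).eventually h4
  have h6 : ∀ᶠ q : (X × E) × (X × E) in 𝓝 (p, p), (κ q.2.1, q.2.2) ∈ T :=
    (continuousAt_snd (p := (p, p))).eventually h4
  have h7 : ∀ᶠ q : (X × E) × (X × E) in 𝓝 (p, p), r (κ q.1.1) = q.1.1 := by
    have : ∀ᶠ q : X × E in 𝓝 p, r (κ q.1) = q.1 :=
      (continuousAt_fst (p := p)).eventually (hx.ev.mono fun q hq => hq.2)
    exact (continuousAt_fst (p := (p, p))).eventually this
  have h8 : ∀ᶠ q : (X × E) × (X × E) in 𝓝 (p, p), r (κ q.2.1) = q.2.1 := by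
    have : ∀ᶠ q : X × E in 𝓝 p, r (κ q.1) = q.1 :=
      (continuousAt_fst (p := p)).eventually (hx.ev.mono fun q hq => hq.2)
    exact (continuousAt_snd (p := (p, p))).eventually this
  have h9 : ∀ᶠ q : (X × E) × (X × E) in 𝓝 (p, p),
      ‖κ q.1.1 - κ q.2.1‖ ≤ C * dist q.1.1 q.2.1 := by
    have : Tendsto (fun q : (X × E) × (X × E) => (q.1.1, q.2.1)) (𝓝 (p, p)) (𝓝 (p.1, p.1)) :=
      ((continuous_fst.comp continuous_fst).prodMk
        (continuous_fst.comp continuous_snd)).continuousAt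
    exact this.eventually hC
  refine ⟨K * max |C| 1, ?_⟩
  filter_upwards [h5, h6, h7, h8, h9] with q a1 a2 a3 a4 a5
  have b1 := hK.dist_le_mul _ a1 _ a2
  simp only [a3, a4] at b1
  rw [← dist_eq_norm]
  refine b1.trans ?_
  rw [mul_assoc]
  refine mul_le_mul_of_nonneg_left ?_ K.2
  rw [Prod.dist_eq, dist_eq_norm, Prod.dist_eq]
  refine max_le ?_ ?_
  · calc ‖κ q.1.1 - κ q.2.1‖ ≤ C * dist q.1.1 q.2.1 := a5
      _ ≤ |C| * dist q.1.1 q.2.1 := mul_le_mul_of_nonneg_right (le_abs_self _) dist_nonneg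
      _ ≤ max |C| 1 * max (dist q.1.1 q.2.1) (dist q.1.2 q.2.2) := by
        gcongr
        · exact le_max_left _ _
        · exact le_max_left _ _
  · calc dist q.1.2 q.2.2 = 1 * dist q.1.2 q.2.2 := (one_mul _).symm
      _ ≤ max |C| 1 * max (dist q.1.1 q.2.1) (dist q.1.2 q.2.2) := by
        gcongr
        · exact le_max_right _ _
        · exact le_max_right _ _

/-- LIPSCHITZ ON COMPACT SETS, in both variables. -/
theorem SmOn.lip (hD : LipSec D) (hF : SmOn D F S) {K : Set (X × E)} (hK : IsCompact K)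
    (hKS : K ⊆ S) : ∃ C : ℝ, 0 ≤ C ∧ ∀ p ∈ K, ∀ q ∈ K,
      ‖F p.1 p.2 - F q.1 q.2‖ ≤ C * max (dist p.1 q.1) (dist p.2 q.2) :=
  lip_of_local (F := fun p : X × E => F p.1 p.2) hK fun _ hp => SmOn.locLip hD hF (hKS hp)

/-- Lipschitz in the first variable -/
theorem SmOn.lip_fst (hD : LipSec D) (hF : SmOn D F S) {Q : Set X} {P : Set E} (hQ : IsCompact Q)
    (hP : IsCompact P) (h : Q ×ˢ P ⊆ S) : ∃ C : ℝ, 0 ≤ C ∧ ∀ x ∈ Q, ∀ x' ∈ Q, ∀ u ∈ P,
      ‖F x u - F x' u‖ ≤ C * dist x x' := by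
  obtain ⟨C, hC, H⟩ := SmOn.lip hD hF (hQ.prod hP) h
  refine ⟨C, hC, fun x hx x' hx' u hu => ?_⟩
  have := H (x, u) ⟨hx, hu⟩ (x', u) ⟨hx', hu⟩
  simpa using this

/-- HOELDER: substitution of a Hölder function into a function which is smooth along plots. -/
theorem SmOn.holder_comp (hD : LipSec D) (hF : SmOn D F S) {P : Type*} {Q : Set X}
    (hQ : IsCompact Q) {h : X → P → E} {T : Set P} {K : Set (X × E)} (hK : IsCompact K)
    (hKS : K ⊆ S) (hh : ∀ x ∈ Q, ∀ u ∈ T, (x, h x u) ∈ K) {C₀ α : ℝ} (hα : 0 < α) (hα1 : α ≤ 1)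
    (hH : ∀ x ∈ Q, ∀ x' ∈ Q, ∀ u ∈ T, ‖h x u - h x' u‖ ≤ C₀ * dist x x' ^ α) :
    ∃ C : ℝ, 0 ≤ C ∧ ∀ x ∈ Q, ∀ x' ∈ Q, ∀ u ∈ T,
      ‖F x (h x u) - F x' (h x' u)‖ ≤ C * dist x x' ^ α := by
  obtain ⟨C, hC, H⟩ := SmOn.lip hD hF hK hKS
  obtain ⟨B, hB⟩ := Metric.isBounded_iff.1 hQ.isBounded
  set B' : ℝ := max B 1 with hB'
  have hB1 : 1 ≤ B' := le_max_right _ _
  have hB0 : 0 < B' := by linarith
  refine ⟨C * (B' + |C₀|), by positivity, ?_⟩
  intro x hx x' hx' u hu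
  have h1 := H _ (hh x hx u hu) _ (hh x' hx' u hu)
  have hd : 0 ≤ dist x x' := dist_nonneg
  have h2 : dist x x' ≤ B' * dist x x' ^ α := by
    rcases le_or_gt (dist x x') 1 with h | h
    · have h3 : dist x x' ≤ dist x x' ^ α := by
        have h4 := Real.rpow_le_rpow_of_exponent_ge' hd h hα.le hα1
        rwa [Real.rpow_one] at h4
      have h5 : 0 ≤ dist x x' ^ α := Real.rpow_nonneg hd _
      nlinarith
    · have h3 : 1 ≤ dist x x' ^ α := Real.one_le_rpow h.le hα.le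
      have h4 : dist x x' ≤ B' := (hB hx hx').trans (le_max_left _ _)
      nlinarith
  have h3 : dist (h x u) (h x' u) ≤ |C₀| * dist x x' ^ α := by
    rw [dist_eq_norm]
    exact (hH x hx x' hx' u hu).trans
      (mul_le_mul_of_nonneg_right (le_abs_self _) (Real.rpow_nonneg hd _))
  have h4 : 0 ≤ dist x x' ^ α := Real.rpow_nonneg hd _
  have h5 : 0 ≤ |C₀| * dist x x' ^ α := by positivity
  have h6 : 0 ≤ B' * dist x x' ^ α := by positivity
  refine h1.trans ?_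
  rw [mul_assoc]
  refine mul_le_mul_of_nonneg_left ?_ hC
  rw [add_mul]
  exact max_le (h2.trans (by linarith)) (h3.trans (by linarith))

end Vale.Agent.P207.N3.H863
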