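import Mathlib

/-!
# Two solutions which stay bounded in the past: comparison of their slopes

Row P1a-H of the line N3 of P207. `u₁`, `u₂` solve `u'' = f₁ (t, u, u')`, `u'' = f₂ (t, u, u')` on
`(-∞, 0]` and stay small there, `u₁ 0 = u₂ 0`, and `f₁ - f₂ = O(F e^{-L t})`. Then
`|u₁' 0 - u₂' 0| ≤ C F^α`.
-/

open Set Filter Topology Metric

noncomputable section

namespace Vale.Agent.P207.N3.H863

variable {E : Type*} [NormedAddCommGroup E] [InnerProductSpace ℝ E]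

/-- The Lyapunov function `‖e‖² - (χ²/2) ‖d‖²`. -/
theorem lyap {χ κ G T : ℝ} {d e r : ℝ → E} {A : ℝ → E →L[ℝ] E}
    (hχ : 0 < χ) (hκ1 : κ ≤ χ / 4) (hκ2 : κ ≤ χ ^ 2 / 4) (hT : 0 ≤ T)
    (hdc : ContinuousOn d (Icc (-T) 0)) (hec : ContinuousOn e (Icc (-T) 0))
    (hd : ∀ t ∈ Ioo (-T) 0, HasDerivAt d (A t (d t) + e t) t)
    (he : ∀ t ∈ Ioo (-T) 0, HasDerivAt e (-(A t (e t)) + r t) t)
    (hA : ∀ t ∈ Ioo (-T) 0, ∀ v, χ * ‖v‖ ^ 2 ≤ inner ℝ (A t v) v)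
    (hr : ∀ t ∈ Ioo (-T) 0, ‖r t‖ ≤ κ * (‖d t‖ + ‖e t‖) + G)
    (h0 : d 0 = 0) :
    ‖e 0‖ ^ 2 ≤ Real.exp (-(χ / 2) * T) * ‖e (-T)‖ ^ 2 + 4 / χ ^ 2 * G ^ 2 := by
  set K : ℝ := 4 / χ ^ 2 * G ^ 2 with hK
  have hK0 : 0 ≤ K := by positivity
  let Q : ℝ → ℝ := fun t => ‖e t‖ ^ 2 - χ ^ 2 / 2 * ‖d t‖ ^ 2
  let H : ℝ → ℝ := fun t => Real.exp (χ / 2 * t) * (Q t - K)
  have hanti : AntitoneOn H (Icc (-T) 0) := by
    apply antitoneOn_of_deriv_nonpos (convex_Icc _ _)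
    · apply ContinuousOn.mul
      · exact (Real.continuous_exp.comp (continuous_const.mul continuous_id)).continuousOn
      · exact ((hec.norm.pow 2).sub (continuousOn_const.mul (hdc.norm.pow 2))).sub
          continuousOn_const
    · rw [interior_Icc]
      intro t ht
      have h1 := (he t ht).norm_sq
      have h2 := (hd t ht).norm_sq
      have h3 : HasDerivAt (fun t => Real.exp (χ / 2 * t)) (Real.exp (χ / 2 * t) * (χ / 2)) t := by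
        have := ((hasDerivAt_id t).const_mul (χ / 2)).exp
        simpa using this
      exact (h3.mul ((h1.sub (h2.const_mul (χ ^ 2 / 2))).sub_const K)).differentiableAt
        |>.differentiableWithinAt
    · rw [interior_Icc]
      intro t ht
      have h1 := (he t ht).norm_sq
      have h2 := (hd t ht).norm_sq
      have h3 : HasDerivAt (fun t => Real.exp (χ / 2 * t)) (Real.exp (χ / 2 * t) * (χ / 2)) t := by
        have := ((hasDerivAt_id t).const_mul (χ / 2)).exp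
        simpa using this
      have h4 := (h3.mul ((h1.sub (h2.const_mul (χ ^ 2 / 2))).sub_const K)).deriv
      have h5 : deriv H t = Real.exp (χ / 2 * t) * (χ / 2) *
          (‖e t‖ ^ 2 - χ ^ 2 / 2 * ‖d t‖ ^ 2 - K) + Real.exp (χ / 2 * t) *
          (2 * inner ℝ (e t) (-(A t (e t)) + r t)
            - χ ^ 2 / 2 * (2 * inner ℝ (d t) (A t (d t) + e t))) := h4
      rw [h5]
      have hi1 : inner ℝ (e t) (-(A t (e t)) + r t)
          ≤ -χ * ‖e t‖ ^ 2 + ‖e t‖ * (κ * (‖d t‖ + ‖e t‖) + G) := by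
        rw [inner_add_right, inner_neg_right]
        have a1 := hA t ht (e t)
        rw [real_inner_comm] at a1
        have a2 : inner ℝ (e t) (r t) ≤ ‖e t‖ * ‖r t‖ := real_inner_le_norm _ _
        have a3 := mul_le_mul_of_nonneg_left (hr t ht) (norm_nonneg (e t))
        linarith
      have hi2 : -(inner ℝ (d t) (A t (d t) + e t)) ≤ -χ * ‖d t‖ ^ 2 + ‖d t‖ * ‖e t‖ := by
        rw [inner_add_right]
        have a1 := hA t ht (d t)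
        rw [real_inner_comm] at a1
        have a2 : |inner ℝ (d t) (e t)| ≤ ‖d t‖ * ‖e t‖ := abs_real_inner_le_norm _ _
        have a3 := neg_abs_le (inner ℝ (d t) (e t))
        linarith
      have hx : 0 ≤ ‖e t‖ := norm_nonneg _
      have hy : 0 ≤ ‖d t‖ := norm_nonneg _
      set x := ‖e t‖
      set y := ‖d t‖
      have key : (χ / 2) * (x ^ 2 - χ ^ 2 / 2 * y ^ 2 - K)
          + (2 * (-χ * x ^ 2 + x * (κ * (y + x) + G))
            + χ ^ 2 * (-χ * y ^ 2 + y * x)) ≤ 0 := by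
        have e1 : (χ / 2) * K = 2 / χ * G ^ 2 := by
          rw [hK]; field_simp; norm_num
        have e2 : 2 * x * G ≤ χ / 2 * x ^ 2 + 2 / χ * G ^ 2 := by
          have : 0 ≤ (χ / 2 * x - G) ^ 2 * (2 / χ) := by positivity
          have e3 : (χ / 2 * x - G) ^ 2 * (2 / χ) = χ / 2 * x ^ 2 - 2 * x * G + 2 / χ * G ^ 2 := by
            field_simp; ring
          linarith
        have e4 : κ * x ^ 2 ≤ χ / 4 * x ^ 2 := mul_le_mul_of_nonneg_right hκ1 (sq_nonneg x)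
        have e5 : κ * (x * y) ≤ χ ^ 2 / 4 * (x * y) :=
          mul_le_mul_of_nonneg_right hκ2 (mul_nonneg hx hy)
        have e6 : 0 ≤ χ * ((x - 3 / 2 * χ * y) ^ 2) := by positivity
        have e7 : 0 ≤ χ ^ 3 * y ^ 2 := by positivity
        nlinarith [e1, e2, e4, e5, e6, e7]
      have hexp := Real.exp_pos (χ / 2 * t)
      have : Real.exp (χ / 2 * t) * (χ / 2) * (x ^ 2 - χ ^ 2 / 2 * y ^ 2 - K)
          + Real.exp (χ / 2 * t) * (2 * inner ℝ (e t) (-(A t (e t)) + r t)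
            - χ ^ 2 / 2 * (2 * inner ℝ (d t) (A t (d t) + e t)))
          = Real.exp (χ / 2 * t) * ((χ / 2) * (x ^ 2 - χ ^ 2 / 2 * y ^ 2 - K)
            + (2 * inner ℝ (e t) (-(A t (e t)) + r t)
              + χ ^ 2 * (-(inner ℝ (d t) (A t (d t) + e t))))) := by ring
      rw [this]
      apply mul_nonpos_of_nonneg_of_nonpos hexp.le
      have h6 := mul_le_mul_of_nonneg_left hi2 (sq_nonneg χ)
      linarith
  have h7 := hanti (left_mem_Icc.2 (by linarith)) (right_mem_Icc.2 (by linarith))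
    (by linarith : -T ≤ (0 : ℝ))
  simp only [H, Q] at h7
  rw [mul_zero, Real.exp_zero, one_mul, h0, norm_zero] at h7
  have h8 : Real.exp (χ / 2 * -T) * (‖e (-T)‖ ^ 2 - χ ^ 2 / 2 * ‖d (-T)‖ ^ 2 - K)
      ≤ Real.exp (χ / 2 * -T) * ‖e (-T)‖ ^ 2 := by
    apply mul_le_mul_of_nonneg_left _ (Real.exp_pos _).le
    have : 0 ≤ χ ^ 2 / 2 * ‖d (-T)‖ ^ 2 := by positivity
    linarith
  have h9 : χ / 2 * -T = -(χ / 2) * T := by ring
  rw [h9] at h7 h8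
  nlinarith [h7, h8]

/-- The difference of the slopes of two solutions which stay small in the past. -/
theorem slope_close {χ Λ κ F L δ : ℝ} {f₁ f₂ : ℝ → E × E → E} {U R : ℝ → E →L[ℝ] E}
    {u₁ v₁ u₂ v₂ : ℝ → E} (hχ : 0 < χ) (hL : 0 ≤ L) (hF : 0 ≤ F) (hΛ0 : 0 ≤ Λ) (hκ0 : 0 ≤ κ)
    (hκ1 : κ * (1 + Λ) ≤ χ / 4) (hκ2 : κ * (1 + Λ) ≤ χ ^ 2 / 4)
    (hu₁ : ∀ t ≤ 0, HasDerivWithinAt u₁ (v₁ t) (Iic 0) t)
    (hv₁ : ∀ t ≤ 0, HasDerivWithinAt v₁ (f₁ t (u₁ t, v₁ t)) (Iic 0) t)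
    (hu₂ : ∀ t ≤ 0, HasDerivWithinAt u₂ (v₂ t) (Iic 0) t)
    (hv₂ : ∀ t ≤ 0, HasDerivWithinAt v₂ (f₂ t (u₂ t, v₂ t)) (Iic 0) t)
    (hU : ∀ t ≤ 0, HasDerivAt U (-(U t ∘L U t) - R t) t)
    (hUχ : ∀ t ≤ 0, ∀ a, χ * ‖a‖ ^ 2 ≤ inner ℝ (U t a) a)
    (hUΛ : ∀ t ≤ 0, ‖U t‖ ≤ Λ)
    (hq : ∀ t ≤ 0, ∀ z ∈ closedBall (0 : E × E) δ, ∀ z' ∈ closedBall (0 : E × E) δ,
      ‖(f₁ t z + R t z.1) - (f₁ t z' + R t z'.1)‖ ≤ κ * ‖z - z'‖)
    (hf : ∀ t ≤ 0, ∀ z ∈ closedBall (0 : E × E) δ, ‖f₁ t z - f₂ t z‖ ≤ F * Real.exp (-L * t))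
    (hz₁ : ∀ t ≤ 0, ‖(u₁ t, v₁ t)‖ ≤ δ) (hz₂ : ∀ t ≤ 0, ‖(u₂ t, v₂ t)‖ ≤ δ)
    (h0 : u₁ 0 = u₂ 0) {T : ℝ} (hT : 0 ≤ T) :
    ‖v₁ 0 - v₂ 0‖ ^ 2 ≤ Real.exp (-(χ / 2) * T) * (2 * δ * (1 + Λ)) ^ 2
      + 4 / χ ^ 2 * (F * Real.exp (L * T)) ^ 2 := by
  set d : ℝ → E := fun t => u₁ t - u₂ t with hd
  set e : ℝ → E := fun t => (v₁ t - v₂ t) - U t (u₁ t - u₂ t) with he
  set r : ℝ → E := fun t => ((f₁ t (u₁ t, v₁ t) + R t (u₁ t)) - (f₁ t (u₂ t, v₂ t) + R t (u₂ t)))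
    + (f₁ t (u₂ t, v₂ t) - f₂ t (u₂ t, v₂ t)) with hr
  have hsub : Icc (-T) 0 ⊆ Iic (0 : ℝ) := fun t ht => ht.2
  have hdc : ContinuousOn d (Iic 0) := fun t ht =>
    ((hu₁ t ht).sub (hu₂ t ht)).continuousWithinAt
  have hec : ContinuousOn e (Iic 0) := by
    intro t ht
    have h1 : ContinuousWithinAt U (Iic 0) t := (hU t ht).continuousAt.continuousWithinAt
    exact ((hv₁ t ht).sub (hv₂ t ht)).continuousWithinAt.sub (h1.clm_apply (hdc t ht))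
  have hdd : ∀ t ∈ Ioo (-T) 0, HasDerivAt d (U t (d t) + e t) t := by
    intro t ht
    have hn : Iic (0 : ℝ) ∈ 𝓝 t := Iic_mem_nhds ht.2
    have h1 := ((hu₁ t ht.2.le).hasDerivAt hn).sub ((hu₂ t ht.2.le).hasDerivAt hn)
    refine h1.congr_deriv ?_
    simp only [hd, he]
    abel
  have hed : ∀ t ∈ Ioo (-T) 0, HasDerivAt e (-(U t (e t)) + r t) t := by
    intro t ht
    have hn : Iic (0 : ℝ) ∈ 𝓝 t := Iic_mem_nhds ht.2
    have h1 := ((hv₁ t ht.2.le).hasDerivAt hn).sub ((hv₂ t ht.2.le).hasDerivAt hn)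
    have h2 := (hU t ht.2.le).clm_apply (hdd t ht)
    refine (h1.sub h2).congr_deriv ?_
    simp only [hd, he, hr, _root_.sub_apply, _root_.neg_apply, ContinuousLinearMap.comp_apply,
      map_sub, map_add]
    abel
  have hest : ∀ t ∈ Ioo (-T) 0, ‖r t‖ ≤ κ * (1 + Λ) * (‖d t‖ + ‖e t‖) + F * Real.exp (L * T) := by
    intro t ht
    have ht0 := ht.2.le
    have b1 : (u₁ t, v₁ t) ∈ closedBall (0 : E × E) δ := mem_closedBall_zero_iff.2 (hz₁ t ht0)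
    have b2 : (u₂ t, v₂ t) ∈ closedBall (0 : E × E) δ := mem_closedBall_zero_iff.2 (hz₂ t ht0)
    have h1 := hq t ht0 _ b1 _ b2
    have h2 := hf t ht0 _ b2
    have h3 : ‖(u₁ t, v₁ t) - (u₂ t, v₂ t)‖ ≤ (1 + Λ) * (‖d t‖ + ‖e t‖) := by
      have h4 : v₁ t - v₂ t = U t (d t) + e t := by simp only [hd, he]; abel
      have h5 : ‖v₁ t - v₂ t‖ ≤ Λ * ‖d t‖ + ‖e t‖ := by
        rw [h4]
        refine (norm_add_le _ _).trans ?_
        gcongr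
        exact ((U t).le_opNorm _).trans (mul_le_mul_of_nonneg_right (hUΛ t ht0) (norm_nonneg _))
      have h6 : 0 ≤ ‖d t‖ := norm_nonneg _
      have h7 : 0 ≤ ‖e t‖ := norm_nonneg _
      have h8 : 0 ≤ Λ * ‖d t‖ := mul_nonneg hΛ0 h6
      have h9 : 0 ≤ Λ * ‖e t‖ := mul_nonneg hΛ0 h7
      rw [Prod.mk_sub_mk, Prod.norm_mk]
      apply max_le
      · show ‖d t‖ ≤ _
        nlinarith
      · nlinarith
    have h4 : Real.exp (-L * t) ≤ Real.exp (L * T) := by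
      apply Real.exp_le_exp.2
      nlinarith [ht.1]
    calc ‖r t‖ ≤ κ * ‖(u₁ t, v₁ t) - (u₂ t, v₂ t)‖ + F * Real.exp (-L * t) :=
          (norm_add_le _ _).trans (add_le_add h1 h2)
      _ ≤ κ * ((1 + Λ) * (‖d t‖ + ‖e t‖)) + F * Real.exp (L * T) := by gcongr
      _ = _ := by ring
  have h1 := lyap hχ hκ1 hκ2 hT (hdc.mono hsub) (hec.mono hsub) hdd hed
    (fun t ht => hUχ t ht.2.le) hest (by simp only [hd, h0, sub_self])
  have h2 : e 0 = v₁ 0 - v₂ 0 := by simp only [he, h0, sub_self, map_zero, sub_zero]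
  have h3 : ‖e (-T)‖ ≤ 2 * δ * (1 + Λ) := by
    have hT' : -T ≤ 0 := by linarith
    have a1 : ‖u₁ (-T)‖ ≤ δ := (norm_fst_le _).trans (hz₁ _ hT')
    have a2 : ‖v₁ (-T)‖ ≤ δ := (norm_snd_le _).trans (hz₁ _ hT')
    have a3 : ‖u₂ (-T)‖ ≤ δ := (norm_fst_le _).trans (hz₂ _ hT')
    have a4 : ‖v₂ (-T)‖ ≤ δ := (norm_snd_le _).trans (hz₂ _ hT')
    have a5 : ‖u₁ (-T) - u₂ (-T)‖ ≤ 2 * δ := (norm_sub_le _ _).trans (by linarith)
    have a6 : ‖v₁ (-T) - v₂ (-T)‖ ≤ 2 * δ := (norm_sub_le _ _).trans (by linarith)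
    have a7 : ‖U (-T) (u₁ (-T) - u₂ (-T))‖ ≤ Λ * (2 * δ) :=
      ((U (-T)).le_opNorm _).trans (mul_le_mul (hUΛ _ hT') a5 (norm_nonneg _) hΛ0)
    calc ‖e (-T)‖ ≤ ‖v₁ (-T) - v₂ (-T)‖ + ‖U (-T) (u₁ (-T) - u₂ (-T))‖ := norm_sub_le _ _
      _ ≤ 2 * δ + Λ * (2 * δ) := add_le_add a6 a7
      _ = _ := by ring
  rw [h2] at h1
  refine h1.trans ?_
  gcongr

/-- Optimisation in the length `T` of the window. -/
theorem holder_of_window {χ L M C D a : ℝ} (hχ : 0 < χ) (hL : 0 ≤ L) (hM : 0 ≤ M) (hC : 0 ≤ C)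
    (hD : 0 ≤ D) (haM : a ≤ M)
    (h : ∀ T : ℝ, 0 ≤ T → a ^ 2 ≤ Real.exp (-(χ / 2) * T) * M ^ 2
      + (C * (D * Real.exp (L * T))) ^ 2) :
    a ≤ (M + C) * D ^ (χ / (4 * L + χ)) := by
  have hp : 0 < 4 * L + χ := by linarith
  have hα : 0 < χ / (4 * L + χ) := by positivity
  rcases hD.eq_or_lt with h0 | h0
  · rw [← h0] at h ⊢
    rw [Real.zero_rpow hα.ne', mul_zero]
    have h1 : Tendsto (fun T : ℝ => Real.exp (-(χ / 2) * T) * M ^ 2) atTop (𝓝 (0 * M ^ 2)) := by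
      refine Tendsto.mul_const _ ?_
      refine Real.tendsto_exp_atBot.comp ?_
      exact tendsto_id.const_mul_atTop_of_neg (by linarith)
    rw [zero_mul] at h1
    have h2 : a ^ 2 ≤ 0 := by
      refine ge_of_tendsto h1 ?_
      filter_upwards [eventually_ge_atTop 0] with T hT
      simpa using h T hT
    nlinarith
  rcases le_or_gt 1 D with h1 | h1
  · have h2 : 1 ≤ D ^ (χ / (4 * L + χ)) := Real.one_le_rpow h1 hα.le
    nlinarith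
  · set T : ℝ := 4 / (4 * L + χ) * (-Real.log D) with hT
    have hlog : Real.log D < 0 := Real.log_neg h0 h1
    have hT0 : 0 ≤ T := mul_nonneg (by positivity) (by linarith)
    have h2 := h T hT0
    set α : ℝ := χ / (4 * L + χ) with hαd
    have e1 : Real.exp (-(χ / 2) * T) = (D ^ α) ^ 2 := by
      rw [Real.rpow_def_of_pos h0, ← Real.exp_nat_mul]
      congr 1
      rw [hT, hαd]
      push_cast
      field_simp
      ring
    have e2 : D * Real.exp (L * T) = D ^ α := by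
      rw [Real.rpow_def_of_pos h0]
      nth_rewrite 1 [← Real.exp_log h0]
      rw [← Real.exp_add]
      congr 1
      rw [hT, hαd]
      field_simp
      ring
    rw [e1, e2] at h2
    have h3 : 0 ≤ D ^ α := Real.rpow_nonneg h0.le _
    have h4 : a ^ 2 ≤ ((M + C) * D ^ α) ^ 2 := by
      refine h2.trans ?_
      have : ((M + C) * D ^ α) ^ 2 = (D ^ α) ^ 2 * M ^ 2 + (C * D ^ α) ^ 2
          + 2 * M * C * (D ^ α) ^ 2 := by ring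
      rw [this]
      have : 0 ≤ 2 * M * C * (D ^ α) ^ 2 := by positivity
      linarith
    exact (abs_le_of_sq_le_sq' h4 (by positivity)).2

/-- HOELDER: the slopes at one point of two solutions, small in the past, of two equations at
distance `D e^{-L t}`, `t ≤ 0`, differ by at most `C D ^ α`. -/
theorem slope_holder {χ Λ κ D L δ : ℝ} {f₁ f₂ : ℝ → E × E → E} {U R : ℝ → E →L[ℝ] E}
    {u₁ v₁ u₂ v₂ : ℝ → E} (hχ : 0 < χ) (hL : 0 ≤ L) (hD : 0 ≤ D) (hΛ0 : 0 ≤ Λ) (hκ0 : 0 ≤ κ)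
    (hδ : 0 ≤ δ) (hκ1 : κ * (1 + Λ) ≤ χ / 4) (hκ2 : κ * (1 + Λ) ≤ χ ^ 2 / 4)
    (hu₁ : ∀ t ≤ 0, HasDerivWithinAt u₁ (v₁ t) (Iic 0) t)
    (hv₁ : ∀ t ≤ 0, HasDerivWithinAt v₁ (f₁ t (u₁ t, v₁ t)) (Iic 0) t)
    (hu₂ : ∀ t ≤ 0, HasDerivWithinAt u₂ (v₂ t) (Iic 0) t)
    (hv₂ : ∀ t ≤ 0, HasDerivWithinAt v₂ (f₂ t (u₂ t, v₂ t)) (Iic 0) t)
    (hU : ∀ t ≤ 0, HasDerivAt U (-(U t ∘L U t) - R t) t)
    (hUχ : ∀ t ≤ 0, ∀ a, χ * ‖a‖ ^ 2 ≤ inner ℝ (U t a) a)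
    (hUΛ : ∀ t ≤ 0, ‖U t‖ ≤ Λ)
    (hq : ∀ t ≤ 0, ∀ z ∈ closedBall (0 : E × E) δ, ∀ z' ∈ closedBall (0 : E × E) δ,
      ‖(f₁ t z + R t z.1) - (f₁ t z' + R t z'.1)‖ ≤ κ * ‖z - z'‖)
    (hf : ∀ t ≤ 0, ∀ z ∈ closedBall (0 : E × E) δ, ‖f₁ t z - f₂ t z‖ ≤ D * Real.exp (-L * t))
    (hz₁ : ∀ t ≤ 0, ‖(u₁ t, v₁ t)‖ ≤ δ) (hz₂ : ∀ t ≤ 0, ‖(u₂ t, v₂ t)‖ ≤ δ)
    (h0 : u₁ 0 = u₂ 0) :
    ‖v₁ 0 - v₂ 0‖ ≤ (2 * δ * (1 + Λ) + 2 / χ) * D ^ (χ / (4 * L + χ)) := by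
  have h1 := fun (T : ℝ) (hT : 0 ≤ T) => slope_close hχ hL hD hΛ0 hκ0 hκ1 hκ2 hu₁ hv₁ hu₂ hv₂ hU
    hUχ hUΛ hq hf hz₁ hz₂ h0 hT
  have h2 : ‖v₁ 0 - v₂ 0‖ ≤ 2 * δ * (1 + Λ) := by
    have a1 : ‖v₁ 0‖ ≤ δ := (norm_snd_le _).trans (hz₁ 0 le_rfl)
    have a2 : ‖v₂ 0‖ ≤ δ := (norm_snd_le _).trans (hz₂ 0 le_rfl)
    refine (norm_sub_le _ _).trans ?_
    have : 0 ≤ 2 * δ * Λ := by positivity
    nlinarith
  refine holder_of_window hχ hL (by positivity) (by positivity) hD h2 ?_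
  intro T hT
  refine (h1 T hT).trans (le_of_eq ?_)
  congr 1
  field_simp
  ring

end Vale.Agent.P207.N3.H863
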