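import Vale.Agent.P207.N3.H803.Ode
import Vale.Agent.P207.N3.H863.Slope

/-!
# Hölder dependence of the slope `g x u` on `x`

Row P1a-H of the line N3 of P207. `u'' = f (φ_t x, (u, u'))` over a flow `φ` of the compact space
`K`; `g x u₀ = u' 0` for the solution `u` on the past which stays small, with `u 0 = u₀`.
-/

set_option maxSynthPendingDepth 3

open Set Filter Topology Metric
open scoped ContDiff

noncomputable section

namespace Vale.Agent.P207.N3.H863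

variable {K : Type*} [TopologicalSpace K] [CompactSpace K] {E : Type} [NormedAddCommGroup E]
  [InnerProductSpace ℝ E]

/-- `f x z + R x z.1` is Lipschitz with a small constant, uniformly in `x`. -/
theorem exists_small_lip {f : K → E × E → E} {R : K → E →L[ℝ] E} {ρ κ : ℝ} (hρ : 0 < ρ)
    (hκ : 0 < κ) (hf : JC f (univ ×ˢ ball 0 ρ))
    (hfd : ∀ x a b, fderiv ℝ (f x) 0 (a, b) = -(R x a)) :
    ∃ δ₀, 0 < δ₀ ∧ δ₀ < ρ ∧ ∀ x, ∀ z ∈ closedBall (0 : E × E) δ₀, ∀ z' ∈ closedBall (0 : E × E) δ₀,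
      ‖(f x z + R x z.1) - (f x z' + R x z'.1)‖ ≤ κ * ‖z - z'‖ := by
  have h1 : ∀ᶠ u in 𝓝 (0 : E × E), ∀ x ∈ (univ : Set K),
      ‖fderiv ℝ (f x) u - fderiv ℝ (f x) 0‖ < κ := by
    refine isCompact_univ.eventually_forall_of_forall_eventually fun x _ => ?_
    have h2 := hf.fderiv.continuousOn
    have hm : ∀ p : (E × E) × K, p.1 ∈ ball (0 : E × E) ρ → ((p.2, p.1) : K × (E × E)) ∈
        (univ ×ˢ ball (0 : E × E) ρ) := fun p hp => ⟨mem_univ _, hp⟩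
    have h0 : (0 : E × E) ∈ ball (0 : E × E) ρ := mem_ball_self hρ
    have h3 : ContinuousAt (fun p : (E × E) × K => fderiv ℝ (f p.2) p.1) ((0 : E × E), x) := by
      have := (h2.continuousAt (hf.isOpen.mem_nhds (hm ((0 : E × E), x) h0)))
      exact ContinuousAt.comp (f := fun p : (E × E) × K => ((p.2, p.1) : K × (E × E))) this
        (by fun_prop)
    have h4 : ContinuousAt (fun p : (E × E) × K => fderiv ℝ (f p.2) 0) ((0 : E × E), x) := by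
      have := (h2.continuousAt (hf.isOpen.mem_nhds (hm ((0 : E × E), x) h0)))
      exact ContinuousAt.comp (f := fun p : (E × E) × K => ((p.2, (0 : E × E)) : K × (E × E))) this
        (by fun_prop)
    have h6 := (h3.sub h4).norm
    have h7 : Tendsto (fun p : (E × E) × K => ‖fderiv ℝ (f p.2) p.1 - fderiv ℝ (f p.2) 0‖)
        (𝓝 ((0 : E × E), x)) (𝓝 0) := by
      have h8 := h6.tendsto
      simpa using h8
    exact h7.eventually (gt_mem_nhds hκ)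
  obtain ⟨δ, hδ, h2⟩ := Metric.eventually_nhds_iff_ball.1 h1
  refine ⟨min (δ / 2) (ρ / 2), by positivity, (min_le_right _ _).trans_lt (by linarith), ?_⟩
  intro x z hz z' hz'
  have hd : ∀ w ∈ closedBall (0 : E × E) (min (δ / 2) (ρ / 2)),
      HasFDerivWithinAt (fun w => f x w + R x w.1) (fderiv ℝ (f x) w - fderiv ℝ (f x) 0)
        (closedBall (0 : E × E) (min (δ / 2) (ρ / 2))) w := by
    intro w hw
    have hwρ : w ∈ ball (0 : E × E) ρ :=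
      closedBall_subset_ball ((min_le_right _ _).trans_lt (by linarith)) hw
    have h3 := (hf.hasFDerivAt (p := (x, w)) ⟨mem_univ _, hwρ⟩)
    have h4 : HasFDerivAt (fun w : E × E => R x w.1)
        ((R x).comp (ContinuousLinearMap.fst ℝ E E)) w :=
      ((R x).comp (ContinuousLinearMap.fst ℝ E E)).hasFDerivAt
    have h5 : fderiv ℝ (f x) w - fderiv ℝ (f x) 0
        = fderiv ℝ (f x) w + (R x).comp (ContinuousLinearMap.fst ℝ E E) := by
      ext p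
      · simp [hfd]
      · simp [hfd]
    rw [h5]
    exact (h3.add h4).hasFDerivWithinAt
  have hb : ∀ w ∈ closedBall (0 : E × E) (min (δ / 2) (ρ / 2)),
      ‖fderiv ℝ (f x) w - fderiv ℝ (f x) 0‖ ≤ κ := by
    intro w hw
    exact (h2 w (closedBall_subset_ball ((min_le_left _ _).trans_lt (by linarith)) hw) x
      (mem_univ _)).le
  have := (convex_closedBall (0 : E × E) (min (δ / 2) (ρ / 2))).norm_image_sub_le_of_norm_hasFDerivWithin_le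
    hd hb hz' hz
  exact this

/-- `(u, v)` solves `u' = v`, `v' = f (φ_t x, (u, v))` on the past. -/
structure Sol (φ : ℝ → K → K) (f : K → E × E → E) (x : K) (u v : ℝ → E) : Prop where
  left : ∀ t ≤ 0, HasDerivWithinAt u (v t) (Iic 0) t
  right : ∀ t ≤ 0, HasDerivWithinAt v (f (φ t x) (u t, v t)) (Iic 0) t

omit [TopologicalSpace K] [CompactSpace K] in
/-- translation of a solution -/
theorem Sol.shift {φ : ℝ → K → K} {f : K → E × E → E} {x : K} {u v : ℝ → E}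
    (hφ : ∀ s t x, φ (s + t) x = φ s (φ t x)) (h : Sol φ f x u v) {s : ℝ} (hs : s ≤ 0) :
    Sol φ f (φ s x) (fun t => u (t + s)) (fun t => v (t + s)) := by
  have hmap : MapsTo (fun t : ℝ => t + s) (Iic 0) (Iic 0) := fun t ht => by
    simp only [mem_Iic] at ht ⊢; linarith
  have hd : ∀ t : ℝ, HasDerivWithinAt (fun t : ℝ => t + s) 1 (Iic 0) t := fun t =>
    ((hasDerivAt_id t).add_const s).hasDerivWithinAt
  constructor
  · intro t ht
    have h1 := (h.left (t + s) (hmap ht)).scomp t (hd t) hmap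
    rw [one_smul] at h1
    exact h1
  · intro t ht
    have h1 := (h.right (t + s) (hmap ht)).scomp t (hd t) hmap
    rw [hφ, one_smul] at h1
    exact h1

/-- HOELDER, uniform form, for solutions. -/
theorem exists_slope_holder (φ : ℝ → K → K) {f : K → E × E → E} {U R : K → E →L[ℝ] E}
    {ρ χ L : ℝ} (hρ : 0 < ρ) (hχ : 0 < χ) (hL : 0 ≤ L) (hf : JC f (univ ×ˢ ball 0 ρ))
    (hfd : ∀ x a b, fderiv ℝ (f x) 0 (a, b) = -(R x a)) (hUc : Continuous U)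
    (hU : ∀ x, ∀ t ≤ 0,
      HasDerivAt (fun t => U (φ t x)) (-(U (φ t x) ∘L U (φ t x)) - R (φ t x)) t)
    (hUχ : ∀ x a, χ * ‖a‖ ^ 2 ≤ inner ℝ (U x a) a) :
    ∃ δ₁ C, 0 < δ₁ ∧ δ₁ < ρ ∧ 0 ≤ C ∧ ∀ δ, 0 ≤ δ → δ ≤ δ₁ → ∀ x x' (D : ℝ), 0 ≤ D →
      (∀ t ≤ 0, ∀ z ∈ closedBall (0 : E × E) δ,
        ‖f (φ t x) z - f (φ t x') z‖ ≤ D * Real.exp (-L * t)) →
      ∀ u v u' v', Sol φ f x u v → Sol φ f x' u' v' →
      (∀ t ≤ 0, ‖(u t, v t)‖ ≤ δ) → (∀ t ≤ 0, ‖(u' t, v' t)‖ ≤ δ) → u 0 = u' 0 →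
      ‖v 0 - v' 0‖ ≤ C * D ^ (χ / (4 * L + χ)) := by
  obtain ⟨Λ, hΛ⟩ : ∃ Λ, ∀ x, ‖U x‖ ≤ Λ := by
    obtain ⟨Λ, hΛ⟩ := isCompact_univ.exists_bound_of_continuousOn hUc.continuousOn
    exact ⟨Λ, fun x => hΛ x (mem_univ _)⟩
  have hΛ' : ∀ x, ‖U x‖ ≤ |Λ| := fun x => (hΛ x).trans (le_abs_self _)
  set κ : ℝ := min (χ / 4) (χ ^ 2 / 4) / (1 + |Λ|) with hκd
  have hΛ1 : 0 < 1 + |Λ| := by positivity
  have hκ : 0 < κ := by positivity
  have hκm : κ * (1 + |Λ|) = min (χ / 4) (χ ^ 2 / 4) := by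
    rw [hκd]; field_simp
  obtain ⟨δ₁, hδ₁, hδρ, hlip⟩ := exists_small_lip hρ hκ hf hfd
  refine ⟨δ₁, 2 * δ₁ * (1 + |Λ|) + 2 / χ, hδ₁, hδρ, by positivity, ?_⟩
  intro δ hδ0 hδ x x' D hD hDf u v u' v' hs hs' hb hb' h0
  have hsub : closedBall (0 : E × E) δ ⊆ closedBall 0 δ₁ := closedBall_subset_closedBall hδ
  have h1 := slope_holder (χ := χ) (Λ := |Λ|) (κ := κ) (D := D) (L := L) (δ := δ)
    (f₁ := fun t => f (φ t x)) (f₂ := fun t => f (φ t x')) (U := fun t => U (φ t x))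
    (R := fun t => R (φ t x)) hχ hL hD (abs_nonneg _) hκ.le hδ0
    (hκm.trans_le (min_le_left _ _)) (hκm.trans_le (min_le_right _ _)) hs.left hs.right
    hs'.left hs'.right (hU x) (fun t _ => hUχ _) (fun t _ => hΛ' _)
    (fun t _ z hz z' hz' => hlip _ z (hsub hz) z' (hsub hz')) hDf hb hb' h0
  refine h1.trans ?_
  gcongr

/-- The solutions of the graph `g` with small initial value stay small, and on the graph. -/
theorem exists_small_sol (φ : ℝ → K → K) (hφ : ∀ s t x, φ (s + t) x = φ s (φ t x))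
    {f : K → E × E → E} {g : K → E → E} {ε δ χ : ℝ} (hε : 0 < ε) (hχ : 0 < χ)
    (hg : JC g (univ ×ˢ ball 0 ε)) (hg0 : ∀ x, g x 0 = 0)
    (hgχ : ∀ x a, χ * ‖a‖ ^ 2 ≤ inner ℝ (fderiv ℝ (g x) 0 a) a)
    (hgu : ∀ x u v, Sol φ f x u v → (∀ t ≤ 0, ‖(u t, v t)‖ ≤ δ) → ‖u 0‖ < ε → v 0 = g x (u 0))
    {δ₀ : ℝ} (hδ₀ : 0 < δ₀) :
    ∃ ε₁, 0 < ε₁ ∧ ε₁ < ε ∧ ∀ x u v, Sol φ f x u v → (∀ t ≤ 0, ‖(u t, v t)‖ ≤ δ) → ‖u 0‖ ≤ ε₁ →
      ∀ t ≤ 0, ‖u t‖ ≤ ε₁ ∧ v t = g (φ t x) (u t) ∧ ‖(u t, v t)‖ ≤ δ₀ := by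
  obtain ⟨ε', hε', hε'ε, hmono⟩ := H803.exists_monotone g hε hg hgχ (half_lt_self hχ)
  -- `g` is small near `0`
  have h1 : ∀ᶠ u in 𝓝 (0 : E), ∀ x ∈ (univ : Set K), ‖g x u‖ < δ₀ := by
    refine isCompact_univ.eventually_forall_of_forall_eventually fun x _ => ?_
    have hc : ContinuousAt (fun p : E × K => g p.2 p.1) ((0 : E), x) := by
      have h2 := hg.continuousOn
      have h0 : ((x, (0 : E)) : K × E) ∈ (univ : Set K) ×ˢ ball (0 : E) ε :=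
        ⟨mem_univ _, mem_ball_self hε⟩
      have := h2.continuousAt (hg.isOpen.mem_nhds h0)
      exact ContinuousAt.comp (x := ((0 : E), x)) (f := fun p : E × K => ((p.2, p.1) : K × E))
        this (by fun_prop)
    have h5 : ‖g x (0 : E)‖ < δ₀ := by rw [hg0, norm_zero]; exact hδ₀
    exact hc.norm.eventually (gt_mem_nhds h5)
  obtain ⟨η, hη, h2⟩ := Metric.eventually_nhds_iff_ball.1 h1
  refine ⟨min ε' (min (η / 2) δ₀), by positivity, (min_le_left _ _).trans_lt hε'ε, ?_⟩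
  set ε₁ := min ε' (min (η / 2) δ₀) with hε₁
  have hε₁0 : 0 < ε₁ := by positivity
  have e1 : ε₁ ≤ ε' := min_le_left _ _
  have e2 : ε₁ < η := ((min_le_right _ _).trans (min_le_left _ _)).trans_lt (by linarith)
  have e3 : ε₁ ≤ δ₀ := (min_le_right _ _).trans (min_le_right _ _)
  intro x u v hs hb h0
  -- the graph equation at the times where `u` is small
  have hgr : ∀ t ≤ 0, ‖u t‖ ≤ ε₁ → v t = g (φ t x) (u t) := by
    intro t ht hu
    have h3 := hgu (φ t x) _ _ (hs.shift hφ ht) (fun s hs' => hb (s + t) (by linarith))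
      (by simpa using (hu.trans_lt (e1.trans_lt hε'ε)))
    simpa using h3
  -- `u` stays small
  have hsm : ∀ t ≤ 0, ‖u t‖ ≤ ε₁ := by
    intro t ht
    set w : ℝ → ℝ := fun s => ‖u (-s)‖ ^ 2 with hw
    have hmap : MapsTo (fun s : ℝ => -s) (Ici 0) (Iic 0) := fun s hs => by
      simp only [mem_Ici, mem_Iic] at hs ⊢; linarith
    have hd0 : ∀ s ∈ Ici (0 : ℝ), HasDerivWithinAt (fun s => u (-s)) (-v (-s)) (Ici 0) s := by
      intro s hs'
      have h3 : HasDerivWithinAt (fun s : ℝ => -s) (-1) (Ici 0) s :=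
        (hasDerivAt_neg s).hasDerivWithinAt
      have h4 := (hs.left (-s) (hmap hs')).scomp s h3 hmap
      rw [neg_one_smul] at h4
      exact h4
    have hd : ∀ s ∈ Ico 0 (-t), HasDerivWithinAt w (2 * inner ℝ (u (-s)) (-v (-s))) (Ici s) s := by
      intro s hs'
      exact ((hd0 s hs'.1).norm_sq).mono (Ici_subset_Ici.2 hs'.1)
    have hc : ContinuousOn w (Icc 0 (-t)) := fun s hs' =>
      ((hd0 s hs'.1).norm_sq.continuousWithinAt).mono (fun r hr => hr.1)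
    have h3 := image_le_of_deriv_right_lt_deriv_boundary' hc hd (B := fun _ => ε₁ ^ 2)
      (B' := fun _ => 0) (by simp only [hw, neg_zero]; gcongr) continuousOn_const
      (fun s _ => hasDerivWithinAt_const _ _ _) (by
        intro s hs' heq
        have hs0 : -s ≤ 0 := by linarith [hs'.1]
        have h4 : ‖u (-s)‖ = ε₁ := by
          have h5 : ‖u (-s)‖ ^ 2 = ε₁ ^ 2 := heq
          nlinarith [norm_nonneg (u (-s)), sq_nonneg (‖u (-s)‖ - ε₁), sq_nonneg (‖u (-s)‖ + ε₁)]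
        have h5 := hgr (-s) hs0 h4.le
        have h6 := hmono (φ (-s) x) (u (-s)) (mem_closedBall_zero_iff.2 (h4.le.trans e1)) 0
          (mem_closedBall_self hε'.le)
        rw [hg0, sub_zero, sub_zero, ← h5, h4, real_inner_comm] at h6
        rw [inner_neg_right]
        have : 0 < χ / 2 * ε₁ ^ 2 := by positivity
        linarith)
      (right_mem_Icc.2 (by linarith))
    simp only [hw, neg_neg] at h3
    exact (abs_le_of_sq_le_sq' h3 hε₁0.le).2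
  intro t ht
  have h3 := hsm t ht
  have h4 := hgr t ht h3
  refine ⟨h3, h4, ?_⟩
  rw [Prod.norm_mk]
  refine max_le (h3.trans e3) ?_
  rw [h4]
  exact (h2 (u t) (mem_ball_zero_iff.2 (h3.trans_lt e2)) (φ t x) (mem_univ _)).le

/-- HOELDER for the graph `g`. -/
theorem exists_holder (φ : ℝ → K → K) (hφ : ∀ s t x, φ (s + t) x = φ s (φ t x))
    {f : K → E × E → E} {g : K → E → E} {U R : K → E →L[ℝ] E}
    {ρ ε δ χ L : ℝ} (hρ : 0 < ρ) (hε : 0 < ε) (hχ : 0 < χ) (hL : 0 ≤ L)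
    (hf : JC f (univ ×ˢ ball 0 ρ)) (hfd : ∀ x a b, fderiv ℝ (f x) 0 (a, b) = -(R x a))
    (hUc : Continuous U)
    (hU : ∀ x, ∀ t ≤ 0,
      HasDerivAt (fun t => U (φ t x)) (-(U (φ t x) ∘L U (φ t x)) - R (φ t x)) t)
    (hUχ : ∀ x a, χ * ‖a‖ ^ 2 ≤ inner ℝ (U x a) a)
    (hg : JC g (univ ×ˢ ball 0 ε)) (hg0 : ∀ x, g x 0 = 0) (hgU : ∀ x, fderiv ℝ (g x) 0 = U x)
    (hge : ∀ x, ∀ u₀ ∈ ball (0 : E) ε, ∃ u v, Sol φ f x u v ∧ u 0 = u₀ ∧ v 0 = g x u₀ ∧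
      ∀ t ≤ 0, ‖(u t, v t)‖ ≤ δ)
    (hgu : ∀ x u v, Sol φ f x u v → (∀ t ≤ 0, ‖(u t, v t)‖ ≤ δ) → ‖u 0‖ < ε → v 0 = g x (u 0))
    {ρ' : ℝ} (hρ' : 0 < ρ') :
    ∃ ε₁ C, 0 < ε₁ ∧ ε₁ < ε ∧ 0 ≤ C ∧ ∀ x x' (D : ℝ), 0 ≤ D →
      (∀ t ≤ 0, ∀ z ∈ closedBall (0 : E × E) ρ',
        ‖f (φ t x) z - f (φ t x') z‖ ≤ D * Real.exp (-L * t)) →
      ∀ u ∈ closedBall (0 : E) ε₁, ‖g x u - g x' u‖ ≤ C * D ^ (χ / (4 * L + χ)) := by
  obtain ⟨δ₁, C, hδ₁, -, hC, H⟩ := exists_slope_holder φ hρ hχ hL hf hfd hUc hU hUχ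
  obtain ⟨ε₁, hε₁, hε₁ε, H'⟩ := exists_small_sol φ hφ (δ := δ) hε hχ hg hg0
    (fun x a => by rw [hgU]; exact hUχ x a) hgu (δ₀ := min δ₁ ρ') (by positivity)
  refine ⟨ε₁, C, hε₁, hε₁ε, hC, ?_⟩
  intro x x' D hD hDf u₀ hu₀
  have hu₀' : u₀ ∈ ball (0 : E) ε := closedBall_subset_ball hε₁ε hu₀
  rw [mem_closedBall_zero_iff] at hu₀
  obtain ⟨u, v, hs, h0, hv, hb⟩ := hge x u₀ hu₀'
  obtain ⟨u', v', hs', h0', hv', hb'⟩ := hge x' u₀ hu₀'
  have h1 := fun t ht => (H' x u v hs hb (by rw [h0]; exact hu₀) t ht).2.2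
  have h2 := fun t ht => (H' x' u' v' hs' hb' (by rw [h0']; exact hu₀) t ht).2.2
  have h3 := H (min δ₁ ρ') (by positivity) (min_le_left _ _) x x' D hD
    (fun t ht z hz => hDf t ht z (closedBall_subset_closedBall (min_le_right _ _) hz))
    u v u' v' hs hs' h1 h2 (h0.trans h0'.symm)
  rwa [hv, hv'] at h3

/-- HOELDER for the graph `g`, over a compact metric space: the final form. -/
theorem exists_holder_metric {K : Type*} [PseudoMetricSpace K] [CompactSpace K] (φ : ℝ → K → K)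
    (hφ : ∀ s t x, φ (s + t) x = φ s (φ t x))
    {f : K → E × E → E} {g : K → E → E} {U R : K → E →L[ℝ] E}
    {ρ ε δ χ L : ℝ} (hρ : 0 < ρ) (hε : 0 < ε) (hχ : 0 < χ) (hL : 0 ≤ L)
    (hf : JC f (univ ×ˢ ball 0 ρ)) (hfd : ∀ x a b, fderiv ℝ (f x) 0 (a, b) = -(R x a))
    (hUc : Continuous U)
    (hU : ∀ x, ∀ t ≤ 0,
      HasDerivAt (fun t => U (φ t x)) (-(U (φ t x) ∘L U (φ t x)) - R (φ t x)) t)
    (hUχ : ∀ x a, χ * ‖a‖ ^ 2 ≤ inner ℝ (U x a) a)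
    (hg : JC g (univ ×ˢ ball 0 ε)) (hg0 : ∀ x, g x 0 = 0) (hgU : ∀ x, fderiv ℝ (g x) 0 = U x)
    (hge : ∀ x, ∀ u₀ ∈ ball (0 : E) ε, ∃ u v, Sol φ f x u v ∧ u 0 = u₀ ∧ v 0 = g x u₀ ∧
      ∀ t ≤ 0, ‖(u t, v t)‖ ≤ δ)
    (hgu : ∀ x u v, Sol φ f x u v → (∀ t ≤ 0, ‖(u t, v t)‖ ≤ δ) → ‖u 0‖ < ε → v 0 = g x (u 0))
    {C₁ : ℝ} (hφL : ∀ t ≤ 0, ∀ x x', dist (φ t x) (φ t x') ≤ C₁ * Real.exp (-L * t) * dist x x')
    {ρ' C₂ : ℝ} (hρ' : 0 < ρ')
    (hfL : ∀ x x', ∀ z ∈ closedBall (0 : E × E) ρ', ‖f x z - f x' z‖ ≤ C₂ * dist x x') :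
    ∃ ε₁ C α : ℝ, 0 < ε₁ ∧ ε₁ < ε ∧ 0 ≤ C ∧ 0 < α ∧ α ≤ 1 ∧ ∀ x x', ∀ u ∈ closedBall (0 : E) ε₁,
      ‖g x u - g x' u‖ ≤ C * dist x x' ^ α := by
  obtain ⟨ε₁, C, hε₁, hε₁ε, hC, H⟩ := exists_holder φ hφ hρ hε hχ hL hf hfd hUc hU hUχ hg hg0 hgU
    hge hgu hρ'
  have hp : 0 < 4 * L + χ := by linarith
  set α : ℝ := χ / (4 * L + χ) with hα
  have hα0 : 0 < α := by positivity
  have hα1 : α ≤ 1 := by
    rw [hα, div_le_one hp]
    linarith
  refine ⟨ε₁, C * (|C₂| * |C₁|) ^ α, α, hε₁, hε₁ε, by positivity, hα0, hα1, ?_⟩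
  intro x x' u hu
  have hd : 0 ≤ dist x x' := dist_nonneg
  have h1 := H x x' (|C₂| * |C₁| * dist x x') (by positivity) (by
    intro t ht z hz
    have h2 : ‖f (φ t x) z - f (φ t x') z‖ ≤ |C₂| * dist (φ t x) (φ t x') :=
      (hfL _ _ z hz).trans (mul_le_mul_of_nonneg_right (le_abs_self _) dist_nonneg)
    have h3 : dist (φ t x) (φ t x') ≤ |C₁| * Real.exp (-L * t) * dist x x' := by
      refine (hφL t ht x x').trans ?_
      gcongr
      exact le_abs_self _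
    calc ‖f (φ t x) z - f (φ t x') z‖ ≤ |C₂| * dist (φ t x) (φ t x') := h2
      _ ≤ |C₂| * (|C₁| * Real.exp (-L * t) * dist x x') := by gcongr
      _ = _ := by ring) u hu
  refine h1.trans (le_of_eq ?_)
  rw [Real.mul_rpow (by positivity) hd]
  ring

end Vale.Agent.P207.N3.H863
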