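import Vale.Agent.P207.N3.H248.UMan4
import Vale.Agent.P207.N3.H863.SlopeJC

/-!
# Hölder dependence of the slope, for the output of the unstable manifold theorem

Row P1a-H of the line N3 of P207, for the structures `USys`, `USys.Slope` of helper248.
(helper863)
-/

set_option maxSynthPendingDepth 3

open Set Filter Topology Metric
open scoped ContDiff

noncomputable section

namespace Vale.Agent.P207.N3.H863

/-- A flow which is Lipschitz for times in `[-1, 0]` is exponentially Lipschitz in the past. -/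
theorem flow_exp {K : Type*} [PseudoMetricSpace K] {φ : ℝ → K → K}
    (hadd : ∀ s t x, φ (s + t) x = φ s (φ t x)) (h0 : ∀ x, φ 0 x = x) {C₀ : ℝ} (hC₀ : 1 ≤ C₀)
    (h : ∀ s ∈ Icc (-1 : ℝ) 0, ∀ x x', dist (φ s x) (φ s x') ≤ C₀ * dist x x') :
    ∀ t ≤ 0, ∀ x x', dist (φ t x) (φ t x') ≤ C₀ * Real.exp (-Real.log C₀ * t) * dist x x' := by
  have hpos : 0 < C₀ := by linarith
  have hn : ∀ (n : ℕ) (x x' : K), dist (φ (-n) x) (φ (-n) x') ≤ C₀ ^ n * dist x x' := by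
    intro n
    induction n with
    | zero => intro x x'; simp [h0]
    | succ n ih =>
      intro x x'
      have e1 : (-((n + 1 : ℕ) : ℝ)) = -1 + -(n : ℝ) := by push_cast; ring
      rw [e1, hadd, hadd]
      refine (h (-1) ⟨le_rfl, by norm_num⟩ _ _).trans ?_
      rw [pow_succ, mul_comm (C₀ ^ n) C₀, mul_assoc]
      exact mul_le_mul_of_nonneg_left (ih x x') hpos.le
  intro t ht x x'
  set n : ℕ := ⌊-t⌋₊ with hnd
  have h1 : (n : ℝ) ≤ -t := Nat.floor_le (by linarith)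
  have h2 : -t < n + 1 := Nat.lt_floor_add_one _
  have h3 : t + n ∈ Icc (-1 : ℝ) 0 := ⟨by linarith, by linarith⟩
  have e1 : t = -(n : ℝ) + (t + n) := by ring
  have h4 : dist (φ t x) (φ t x') ≤ C₀ ^ n * (C₀ * dist x x') := by
    have h5 : φ t x = φ (-(n : ℝ)) (φ (t + n) x) := by rw [← hadd, ← e1]
    have h6 : φ t x' = φ (-(n : ℝ)) (φ (t + n) x') := by rw [← hadd, ← e1]
    rw [h5, h6]
    refine (hn n _ _).trans ?_
    exact mul_le_mul_of_nonneg_left (h _ h3 x x') (by positivity)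
  refine h4.trans ?_
  have h5 : C₀ ^ n ≤ Real.exp (-Real.log C₀ * t) := by
    have h6 : C₀ ^ n = Real.exp (Real.log C₀ * n) := by
      rw [mul_comm, Real.exp_nat_mul, Real.exp_log hpos]
    rw [h6]
    apply Real.exp_le_exp.2
    have := Real.log_nonneg hC₀
    nlinarith
  calc C₀ ^ n * (C₀ * dist x x') ≤ Real.exp (-Real.log C₀ * t) * (C₀ * dist x x') := by gcongr
    _ = _ := by ring

open Vale.Agent.P207.N3.H248 (USys)

variable {K E : Type} [PseudoMetricSpace K] [CompactSpace K] [NormedAddCommGroup E]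
  [InnerProductSpace ℝ E] [FiniteDimensional ℝ E]

omit [CompactSpace K] [FiniteDimensional ℝ E] in
/-- positivity of `U` -/
theorem usys_pos (S : USys K E) (x : K) (a : E) : S.χ * ‖a‖ ^ 2 ≤ inner ℝ (S.U x a) a := by
  have h1 : |inner ℝ ((S.Λ • ContinuousLinearMap.id ℝ E - S.U x) a) a| ≤ (S.Λ - S.χ) * ‖a‖ ^ 2 := by
    refine (abs_real_inner_le_norm _ _).trans ?_
    have h2 := (S.Λ • ContinuousLinearMap.id ℝ E - S.U x).le_opNorm a
    calc ‖(S.Λ • ContinuousLinearMap.id ℝ E - S.U x) a‖ * ‖a‖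
        ≤ (‖S.Λ • ContinuousLinearMap.id ℝ E - S.U x‖ * ‖a‖) * ‖a‖ := by gcongr
      _ ≤ ((S.Λ - S.χ) * ‖a‖) * ‖a‖ := by
        gcongr
        exact S.U_le x
      _ = _ := by ring
  have h2 := (abs_le.1 h1).2
  have h3 : inner ℝ ((S.Λ • ContinuousLinearMap.id ℝ E - S.U x) a) a
      = S.Λ * ‖a‖ ^ 2 - inner ℝ (S.U x a) a := by
    rw [_root_.sub_apply, inner_sub_left, _root_.smul_apply,
      ContinuousLinearMap.id_apply, real_inner_smul_left, real_inner_self_eq_norm_sq]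
  rw [h3] at h2
  linarith

/-- **Hölder dependence of the slope on the point.** -/
theorem usys_holder (S : USys K E) {ε δ : ℝ} {g : K → E → E} (hg : S.Slope ε δ g)
    (hadd : ∀ s t x, S.φ (s + t) x = S.φ s (S.φ t x)) {L C₁ : ℝ} (hL : 0 ≤ L)
    (hφL : ∀ t ≤ 0, ∀ x x', dist (S.φ t x) (S.φ t x') ≤ C₁ * Real.exp (-L * t) * dist x x')
    {ρ' C₂ : ℝ} (hρ' : 0 < ρ')
    (hfL : ∀ x x', ∀ z ∈ closedBall (0 : E × E) ρ', ‖S.f x z - S.f x' z‖ ≤ C₂ * dist x x') :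
    ∃ ε₁ C α : ℝ, 0 < ε₁ ∧ ε₁ < ε ∧ 0 ≤ C ∧ 0 < α ∧ α ≤ 1 ∧ ∀ x x', ∀ u ∈ closedBall (0 : E) ε₁,
      ‖g x u - g x' u‖ ≤ C * dist x x' ^ α := by
  have hf : JC S.f (univ ×ˢ ball 0 S.ρ) :=
    ⟨isOpen_univ.prod isOpen_ball, fun x => (S.f_smooth x).mono fun _ hu => hu.2, S.f_cont⟩
  have hgJ : JC g (univ ×ˢ ball 0 ε) :=
    ⟨isOpen_univ.prod isOpen_ball, fun x => (hg.smooth x).mono fun _ hu => hu.2, hg.cont⟩
  exact exists_holder_metric S.φ hadd S.ρ_pos hg.ε_pos S.χ_pos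
    hL hf S.f_deriv S.U_cont (fun x t _ => S.riccati x t) (usys_pos S) hgJ hg.zero hg.deriv
    (δ := δ)
    (fun x u₀ hu₀ => by
      obtain ⟨u, p, h0, hp0, hu, hp, hb⟩ := hg.exist x u₀ hu₀
      exact ⟨u, p, ⟨fun t ht => (hu t ht).hasDerivWithinAt, fun t ht => (hp t ht).hasDerivWithinAt⟩,
        h0, hp0, hb⟩)
    (fun x u v hs hb h0 => hg.uniq x u v ⟨hs.left, hs.right, hb⟩ (mem_ball_zero_iff.2 h0))
    hφL hρ' hfL

end Vale.Agent.P207.N3.H863
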