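import Vale.Agent.P207.N3.H566.Slice

/-!
# P207, N3: calculus of the functions which are smooth along plots

Closure properties of `SmOn D F S`: derivative in the linear variable, composition of operators,
inverse, normalisation. (helper863)
-/

set_option maxSynthPendingDepth 3
set_option linter.unusedSectionVars false

open Set Filter Topology
open scoped ContDiff

namespace Vale.Agent.P207.N3.H863

open Vale.Agent.P207.Q.Fl Vale.Agent.P207.N3.H566

variable {X : Type*} [TopologicalSpace X] {D : Dif X}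
  {E F G H : Type} [NormedAddCommGroup E] [NormedSpace ℝ E] [NormedAddCommGroup F]
  [NormedSpace ℝ F] [NormedAddCommGroup G] [NormedSpace ℝ G] [NormedAddCommGroup H]
  [NormedSpace ℝ H] {S : Set (X × E)}

theorem smOn_mono {f : X → E → F} {T : Set (X × E)} (hf : SmOn D f S) (h : T ⊆ S) :
    SmOn D f T := fun hu hv hS => hf hu hv (h hS)

/-- the derivative in the linear variable -/
theorem smOn_fderiv [FiniteDimensional ℝ E] {f : X → E → F} (hf : SmOn D f S) :
    SmOn D (fun x e => fderiv ℝ (f x) e) S := by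
  intro V _ _ _ u v y hu hv hS
  have h0 : D.At (fun q : V × E => u q.1) (y, v y) :=
    D.comp (u := u) (g := Prod.fst) (x := ((y, v y) : V × E)) hu (Sm.of_contDiff contDiff_fst _)
  set Φ : V × E → F := fun q => f (u q.1) q.2 with hΦ
  have h2 : Sm Φ (y, v y) := hf h0 (Sm.of_contDiff contDiff_snd _) hS
  have h3 : Sm (fun w => ((w, v w) : V × E)) y := (Sm.id' y).prodMk hv
  have h4 : Sm (fderiv ℝ Φ) (y, v y) := h2.fderiv
  have h5 : Sm (fun w => fderiv ℝ Φ (w, v w)) y :=
    Sm.comp (f := fderiv ℝ Φ) (g := fun w => ((w, v w) : V × E)) h4 h3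
  have h6 : Sm (fun w => (fderiv ℝ Φ (w, v w)).comp (ContinuousLinearMap.inr ℝ V E)) y :=
    Sm.comp' (f := fun L : V × E →L[ℝ] F => L.comp (ContinuousLinearMap.inr ℝ V E))
      (Sm.of_contDiff (by fun_prop) _) h5
  refine h6.congr ?_
  have h7 : ∀ᶠ w in 𝓝 y, Sm Φ (w, v w) := (h3.continuousAt (x := y)).eventually (h2.eventually)
  filter_upwards [h7] with w hw
  have h8 : HasFDerivAt Φ (fderiv ℝ Φ (w, v w)) (w, v w) := hw.differentiableAt.hasFDerivAt
  have h9 : HasFDerivAt (fun e : E => ((w, e) : V × E)) (ContinuousLinearMap.inr ℝ V E) (v w) := by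
    have := (hasFDerivAt_const (w : V) (v w : E)).prodMk (hasFDerivAt_id (𝕜 := ℝ) (v w))
    exact this
  have h10 : HasFDerivAt (fun e : E => Φ (w, e))
      ((fderiv ℝ Φ (w, v w)).comp (ContinuousLinearMap.inr ℝ V E)) (v w) :=
    HasFDerivAt.comp (g := Φ) (f := fun e : E => ((w, e) : V × E)) (v w) h8 h9
  exact h10.fderiv.symm

/-- composition with a map which is smooth near the values -/
theorem smOn_comp {f : X → E → F} (hf : SmOn D f S) {φ : F → G}
    (hφ : ∀ p ∈ S, Sm φ (f p.1 p.2)) : SmOn D (fun x e => φ (f x e)) S := by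
  intro V _ _ _ u v y hu hv hS
  exact Sm.comp (f := φ) (g := fun w => f (u w) (v w)) (hφ _ hS) (hf hu hv hS)

/-- composition with a smooth map in the linear variable -/
theorem smOn_comp_right {E' : Type} [NormedAddCommGroup E'] [NormedSpace ℝ E'] {f : X → E → F}
    (hf : SmOn D f S) {φ : E' → E} (hφ : ContDiff ℝ ∞ φ) {T : Set (X × E')}
    (hT : ∀ p ∈ T, (p.1, φ p.2) ∈ S) : SmOn D (fun x e => f x (φ e)) T := by
  intro V _ _ _ u v y hu hv hS
  exact hf hu (Sm.comp' (f := φ) (Sm.of_contDiff hφ _) hv) (hT _ hS)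

theorem smOn_prodMk {f : X → E → F} {g : X → E → G} (hf : SmOn D f S) (hg : SmOn D g S) :
    SmOn D (fun x e => (f x e, g x e)) S := fun hu hv hS => (hf hu hv hS).prodMk (hg hu hv hS)

theorem smOn_const (φ : E → F) (hφ : ContDiff ℝ ∞ φ) : SmOn D (fun _ e => φ e) S :=
  fun _ hv _ => Sm.comp' (f := φ) (Sm.of_contDiff hφ _) hv

theorem smOn_clm_apply {A : X → E → F →L[ℝ] G} {f : X → E → F} (hA : SmOn D A S)
    (hf : SmOn D f S) : SmOn D (fun x e => A x e (f x e)) S := by
  intro V _ _ _ u v y hu hv hS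
  exact Sm.comp (f := fun q : (F →L[ℝ] G) × F => q.1 q.2)
    (g := fun w => (A (u w) (v w), f (u w) (v w)))
    (Sm.of_contDiff (contDiff_fst.clm_apply contDiff_snd) _) ((hA hu hv hS).prodMk (hf hu hv hS))

theorem smOn_clm_comp {A : X → E → G →L[ℝ] H} {B : X → E → F →L[ℝ] G} (hA : SmOn D A S)
    (hB : SmOn D B S) : SmOn D (fun x e => (A x e).comp (B x e)) S := by
  intro V _ _ _ u v y hu hv hS
  exact Sm.comp (f := fun q : (G →L[ℝ] H) × (F →L[ℝ] G) => q.1.comp q.2)
    (g := fun w => (A (u w) (v w), B (u w) (v w)))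
    (Sm.of_contDiff (contDiff_fst.clm_comp contDiff_snd) _) ((hA hu hv hS).prodMk (hB hu hv hS))

/-- the inverse of invertible operators -/
theorem smOn_inverse [CompleteSpace F] {A : X → E → F →L[ℝ] G} (hA : SmOn D A S)
    (h : ∀ p ∈ S, (A p.1 p.2).IsInvertible) : SmOn D (fun x e => (A x e).inverse) S := by
  refine smOn_comp (φ := ContinuousLinearMap.inverse) hA fun p hp => ?_
  obtain ⟨L, hL⟩ := h p hp
  rw [← hL]
  have h1 : ∀ᶠ B : F →L[ℝ] G in 𝓝 (L : F →L[ℝ] G), ∃ L' : F ≃L[ℝ] G, (L' : F →L[ℝ] G) = B :=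
    L.nhds
  filter_upwards [h1] with B hB
  obtain ⟨L', rfl⟩ := hB
  exact contDiffAt_map_inverse L'

/-- normalisation of a nonzero vector field -/
theorem smOn_normalize {F : Type} [NormedAddCommGroup F] [InnerProductSpace ℝ F]
    {f : X → E → F} (hf : SmOn D f S) (h : ∀ p ∈ S, f p.1 p.2 ≠ 0) :
    SmOn D (fun x e => ‖f x e‖⁻¹ • f x e) S := by
  refine smOn_comp (φ := fun w : F => ‖w‖⁻¹ • w) hf fun p hp => ?_
  filter_upwards [isOpen_ne.mem_nhds (h p hp)] with w hw
  have h1 : ContDiffAt ℝ ∞ (fun w : F => ‖w‖) w := contDiffAt_norm ℝ hw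
  exact (h1.inv (norm_ne_zero_iff.2 hw)).smul contDiffAt_id

end Vale.Agent.P207.N3.H863
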